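import Vale.Agent.GAD.PartZ

/-!
# The classical capacity of the generalized amplitude-damping channel (P358, question Q1)

For all `γ, ν ∈ [0,1]` the Holevo capacity of the generalized amplitude-damping channel is
additive, `χ(A^{⊗n}) = n χ(A)`, hence `C(A) = χ(A)`, and
`χ(A) = max_{0 ≤ q ≤ 1} h((1-γ)q + γν) - h((1 + √(1 - 4γ((1-γ)(q-ν)² + ν(1-ν))))/2)`.
-/

namespace Vale.Agent.Results.P358.Capacity

open Matrix
open scoped ComplexOrder

/-- The generalized amplitude-damping channel: with `q = ρ 1 1`, `1 - q = ρ 0 0` it maps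
`((1-q, z), (z̄, q))` to `((1-t, √(1-γ) z), (√(1-γ) z̄, t))`, `t = (1-γ) q + γ ν`
(written as a linear map on all `2 × 2` matrices). -/
noncomputable def gad (γ ν : ℝ) (ρ : Matrix (Fin 2) (Fin 2) ℂ) : Matrix (Fin 2) (Fin 2) ℂ :=
  !![((1 - γ * ν : ℝ) : ℂ) * ρ 0 0 + ((γ * (1 - ν) : ℝ) : ℂ) * ρ 1 1,
      ((Real.sqrt (1 - γ) : ℝ) : ℂ) * ρ 0 1;
     ((Real.sqrt (1 - γ) : ℝ) : ℂ) * ρ 1 0,
      ((γ * ν : ℝ) : ℂ) * ρ 0 0 + ((1 - γ * (1 - ν) : ℝ) : ℂ) * ρ 1 1]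

/-- The `n`-fold tensor power `Φ^{⊗n}` of a linear map `Φ` on `2 × 2` matrices. The computational
basis of `n` qubits is indexed by `Fin n → Fin 2`; the matrix unit `E_{k,l} = ⊗ E_{k_s,l_s}` is
sent to `⊗ Φ(E_{k_s,l_s})`. -/
noncomputable def tpow (Φ : Matrix (Fin 2) (Fin 2) ℂ → Matrix (Fin 2) (Fin 2) ℂ) (n : ℕ)
    (ρ : Matrix (Fin n → Fin 2) (Fin n → Fin 2) ℂ) :
    Matrix (Fin n → Fin 2) (Fin n → Fin 2) ℂ :=
  Matrix.of fun i j => ∑ k : Fin n → Fin 2, ∑ l : Fin n → Fin 2,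
    (∏ s, Φ (Matrix.single (k s) (l s) 1) (i s) (j s)) * ρ k l

/-- von Neumann entropy in bits: `-∑ λ log₂ λ` over the eigenvalues of a Hermitian matrix. -/
noncomputable def vnEntropy {ι : Type} [Fintype ι] [DecidableEq ι] (A : Matrix ι ι ℂ) : ℝ :=
  open Classical in
  if h : A.IsHermitian then (∑ i, Real.negMulLog (h.eigenvalues i)) / Real.log 2 else 0

/-- Density matrices: positive semidefinite with trace one. -/
def IsDensity {ι : Type} [Fintype ι] [DecidableEq ι] (ρ : Matrix ι ι ℂ) : Prop :=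
  ρ.PosSemidef ∧ ρ.trace = 1

/-- All values `S(∑ p_a N(ρ_a)) - ∑ p_a S(N(ρ_a))`, `N = A_{γ,ν}^{⊗n}`, over the finite
ensembles of (possibly entangled) states `ρ_a` of `n` qubits. -/
def holevoSet (γ ν : ℝ) (n : ℕ) : Set ℝ :=
  {x | ∃ (m : ℕ) (p : Fin m → ℝ) (ρ : Fin m → Matrix (Fin n → Fin 2) (Fin n → Fin 2) ℂ),
    (∀ a, 0 ≤ p a) ∧ ∑ a, p a = 1 ∧ (∀ a, IsDensity (ρ a)) ∧
    x = vnEntropy (∑ a, (p a : ℂ) • tpow (gad γ ν) n (ρ a))
      - ∑ a, p a * vnEntropy (tpow (gad γ ν) n (ρ a))}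

/-- The Holevo capacity `χ(A_{γ,ν}^{⊗n})`. -/
noncomputable def chi (γ ν : ℝ) (n : ℕ) : ℝ := sSup (holevoSet γ ν n)

/-- The rates `χ(A_{γ,ν}^{⊗n}) / n`, `n ≥ 1`. -/
def rates (γ ν : ℝ) : Set ℝ := {x | ∃ n : ℕ, 1 ≤ n ∧ x = chi γ ν n / n}

/-- The classical capacity `C(A_{γ,ν}) = sup_n χ(A_{γ,ν}^{⊗n}) / n`. -/
noncomputable def capacity (γ ν : ℝ) : ℝ := sSup (rates γ ν)

/-- Holevo quantity (bits) of the two-state ensemble with excited-state population `q`;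
`Real.binEntropy` is the binary entropy in nats. -/
noncomputable def rate (γ ν q : ℝ) : ℝ :=
  (Real.binEntropy ((1 - γ) * q + γ * ν) - Real.binEntropy
    ((1 + Real.sqrt (1 - 4 * (γ * ((1 - γ) * (q - ν) ^ 2 + ν * (1 - ν))))) / 2)) / Real.log 2

theorem holevoSet_eq (γ ν : ℝ) (n : ℕ) : holevoSet γ ν n = Vale.Agent.GAD.holevoSet γ ν n := rfl

theorem rate_eq (γ ν q : ℝ) : rate γ ν q = Vale.Agent.GAD.rate γ ν q / Real.log 2 := by
  have h1 : Vale.Agent.GAD.dl γ ν (1 - q) q = γ * ((1 - γ) * (q - ν) ^ 2 + ν * (1 - ν)) := by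
    unfold Vale.Agent.GAD.dl; ring
  unfold rate Vale.Agent.GAD.rate Vale.Agent.GAD.H2
  rw [h1, Real.binEntropy_eq_negMulLog_add_negMulLog_one_sub
    ((1 + Real.sqrt (1 - 4 * (γ * ((1 - γ) * (q - ν) ^ 2 + ν * (1 - ν))))) / 2)]
  have h2 : 1 - (1 + Real.sqrt (1 - 4 * (γ * ((1 - γ) * (q - ν) ^ 2 + ν * (1 - ν))))) / 2 =
      (1 - Real.sqrt (1 - 4 * (γ * ((1 - γ) * (q - ν) ^ 2 + ν * (1 - ν))))) / 2 := by ring
  rw [h2, one_pow]

/-- **Main result.** For all `γ, ν ∈ [0,1]`: the Holevo capacity of every number of uses is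
finite and additive, the classical capacity equals the one-use Holevo capacity, and it is the
maximum over `q ∈ [0,1]` of the explicit function `rate γ ν q`. -/
theorem result (γ ν : ℝ) (hγ : γ ∈ Set.Icc (0 : ℝ) 1) (hν : ν ∈ Set.Icc (0 : ℝ) 1) :
    (∀ n : ℕ, 1 ≤ n → (holevoSet γ ν n).Nonempty ∧ BddAbove (holevoSet γ ν n) ∧
      chi γ ν n = n * chi γ ν 1) ∧
    BddAbove (rates γ ν) ∧
    capacity γ ν = chi γ ν 1 ∧
    IsGreatest (rate γ ν '' Set.Icc 0 1) (capacity γ ν) := by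
  obtain ⟨χ, hmax, hn, -⟩ := Vale.Agent.GAD.final hγ.1 hγ.2 hν.1 hν.2
  have hne : ∀ n : ℕ, 1 ≤ n → (holevoSet γ ν n).Nonempty := by
    intro n _
    obtain ⟨x, hx, -⟩ := Vale.Agent.GAD.lower hγ.1 hγ.2 hν.1 hν.2 n
      (Set.left_mem_Icc.2 zero_le_one)
    exact ⟨x, hx⟩
  have hchi : ∀ n : ℕ, 1 ≤ n → chi γ ν n = n * χ := fun n h => (hn n h).csSup_eq (hne n h)
  have hchi1 : chi γ ν 1 = χ := by rw [hchi 1 le_rfl, Nat.cast_one, one_mul]
  have hr : rates γ ν = {χ} := by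
    ext x
    constructor
    · rintro ⟨n, h, rfl⟩
      have hn0 : (0 : ℝ) < n := by exact_mod_cast h
      rw [Set.mem_singleton_iff, hchi n h, mul_div_cancel_left₀ _ hn0.ne']
    · intro hx
      rw [Set.mem_singleton_iff] at hx
      refine ⟨1, le_rfl, ?_⟩
      rw [hx, hchi1, Nat.cast_one, div_one]
  have hcap : capacity γ ν = χ := by
    unfold capacity
    rw [hr, csSup_singleton]
  refine ⟨fun n h => ⟨hne n h, ⟨_, (hn n h).1⟩, ?_⟩, ?_, ?_, ?_⟩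
  · rw [hchi n h, hchi1]
  · rw [hr]; exact bddAbove_singleton
  · rw [hcap, hchi1]
  · have himg : rate γ ν '' Set.Icc 0 1 =
        (fun q => Vale.Agent.GAD.rate γ ν q / Real.log 2) '' Set.Icc 0 1 :=
      Set.image_congr fun q _ => rate_eq γ ν q
    rw [hcap, himg]
    exact hmax

end Vale.Agent.Results.P358.Capacity
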